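import Vale.Agent.P315.DP

/-! The banded dynamic program for the whole input: the exact edit distance when it is small. -/

set_option autoImplicit false

namespace Vale.Agent.P315.H992

open Vale.Agent.P315

/-- Afterwards register `r` holds `min (ED x y) (k + 1)`, where `k` is the content of
register `14`. -/
def band (r : ℕ) : Prog :=
  .seq (.set 10 (.lit 0)) (.seq (.set 11 (.reg 0)) (.seq (.set 12 (.lit 0))
    (.seq (.set 13 (.reg 1)) (.seq dp (.set r (.get 2 (.reg 1)))))))

theorem band_wr (r : ℕ) : (band r).wr = [10, 11, 12, 13, 17, 15, 16, 18, 17, 20, 19, 39, 18, r] :=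
  rfl

theorem band_wa (r : ℕ) : (band r).wa = [2, 2, 2] := rfl

theorem band_spec {E : Env} {s : State} {x y : List ℕ} {k r : ℕ}
    (h0 : s.arr 0 = fun i => x.getD i 0) (h1 : s.arr 1 = fun i => y.getD i 0)
    (hr0 : s.reg 0 = x.length) (hr1 : s.reg 1 = y.length) (h14 : s.reg 14 = k)
    (hk : k + 1 ≤ E.R) (hly : y.length + 1 ≤ E.R) :
    Spec E s (band r) (30 + ((y.length + 1) * 14 + x.length *
        (62 + min y.length (2 * k + 1) * 122)))
      (fun s' => s'.reg r = min (ED x y) (k + 1)) := by
  unfold band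
  refine Spec.set_seq 0 rfl (by decide) (by simp) (fun _ => by omega) ?_
  refine Spec.set_seq x.length rfl (by decide) (by simp [hr0]) (fun hb => ?_) ?_
  · have h := hb.reg 0; simp [hr0] at h; exact h
  refine Spec.set_seq 0 rfl (by decide) (by simp) (fun _ => by omega) ?_
  refine Spec.set_seq y.length rfl (by decide) (by simp [hr1]) (fun _ => by omega) ?_
  refine Spec.seq 10 ((y.length + 1) * 14 + x.length * (62 + min y.length (2 * k + 1) * 122)) 12 0
    (fun s' => ∀ j ≤ y.length, s'.arr 2 j =
      cap (fun i => x.getD i 0) (fun i => y.getD i 0) 0 0 k x.length j) (by decide) (by omega)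
    ?_ ?_
  · exact dp_spec (by simpa using h0) (by simpa using h1) (by simp) (by simp) (by simp) (by simp)
      (by simpa using h14) hk hly
  · intro s1 hf h2
    have e1 : s1.reg 1 = y.length := by
      rw [hf.reg 1 (by decide)]; simpa using hr1
    have e2 : cap (fun i => x.getD i 0) (fun i => y.getD i 0) 0 0 k x.length y.length =
        min (ED x y) (k + 1) := by
      rw [ED_eq_dist]; rfl
    refine Spec.set (min (ED x y) (k + 1)) rfl (by decide) ?_ (fun _ => ?_) ?_
    · simp only [Expr.eval, e1]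
      rw [h2 _ le_rfl, e2]
    · exact (min_le_right _ _).trans hk
    · intro _; simp

theorem band_time (lx ly k n : ℕ) (hx : lx ≤ n) (hy : ly ≤ n) :
    30 + ((ly + 1) * 14 + lx * (62 + min ly (2 * k + 1) * 122)) ≤ 360 * ((n + 1) * (k + 1)) := by
  have h1 : min ly (2 * k + 1) ≤ 2 * k + 1 := min_le_right _ _
  have h2 : lx * (62 + min ly (2 * k + 1) * 122) ≤ n * (62 + (2 * k + 1) * 122) :=
    Nat.mul_le_mul hx (by omega)
  have h3 : n * (62 + (2 * k + 1) * 122) ≤ 306 * (n * (k + 1)) := by nlinarith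
  have h4 : (n + 1) * (k + 1) = n * (k + 1) + (k + 1) := by ring
  have h5 : n ≤ n * (k + 1) := Nat.le_mul_of_pos_right _ (by omega)
  rw [h4]
  omega

/-- The form with one time bound: `360 (n + 1) (k + 1)`. -/
theorem band_spec' {E : Env} {s : State} {x y : List ℕ} {k r n : ℕ}
    (h0 : s.arr 0 = fun i => x.getD i 0) (h1 : s.arr 1 = fun i => y.getD i 0)
    (hr0 : s.reg 0 = x.length) (hr1 : s.reg 1 = y.length) (h14 : s.reg 14 = k)
    (hk : k + 1 ≤ E.R) (hly : y.length + 1 ≤ E.R) (hx : x.length ≤ n) (hy : y.length ≤ n) :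
    Spec E s (band r) (360 * ((n + 1) * (k + 1)))
      (fun s' => s'.reg r = min (ED x y) (k + 1)) :=
  (band_spec h0 h1 hr0 hr1 h14 hk hly).le (band_time _ _ _ _ hx hy)

end Vale.Agent.P315.H992
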