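import Vale.Agent.P315.Main
import Vale.Agent.P315.H992.Band

/-! Computation of the parameters of the one-pass algorithm from the length `n` of the input. -/

set_option autoImplicit false

namespace Vale.Agent.P315.H992

open Vale.Agent.P315

/-! ### The base by repeated squaring -/

/-- `(q, w)` with `q = M ^ w`, `w` a power of two; squared as long as `(q ^ 2) ^ g ≤ n`. -/
def sq (M g n : ℕ) : ℕ → ℕ × ℕ
  | 0 => (M, 1)
  | t + 1 => if ((sq M g n t).1 * (sq M g n t).1) ^ g < n + 1 then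
      ((sq M g n t).1 * (sq M g n t).1, 2 * (sq M g n t).2) else sq M g n t

theorem sq_prop {M g n : ℕ} (hM : M ^ g ≤ n) (t : ℕ) :
    (∃ e, (sq M g n t).2 = 2 ^ e ∧ (sq M g n t).1 = M ^ 2 ^ e) ∧ (sq M g n t).1 ^ g ≤ n ∧
      ((sq M g n t).2 = 2 ^ t ∨ n < ((sq M g n t).1 * (sq M g n t).1) ^ g) := by
  induction t with
  | zero => exact ⟨⟨0, rfl, by simp [sq]⟩, hM, Or.inl rfl⟩
  | succ t ih =>
    obtain ⟨⟨e, h1, h2⟩, h3, h4⟩ := ih
    unfold sq
    split_ifs with hc
    · refine ⟨⟨e + 1, ?_, ?_⟩, Nat.lt_succ_iff.mp hc, ?_⟩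
      · simp only [h1]; rw [pow_succ]; ring
      · simp only [h2]; rw [← pow_add]; congr 1; rw [pow_succ]; ring
      · rcases h4 with h | h
        · left; simp only [h]; rw [pow_succ]; ring
        · omega
    · exact ⟨⟨e, h1, h2⟩, h3, Or.inr (by omega)⟩

/-- The base. -/
def qn (M g n : ℕ) : ℕ := (sq M g n n).1

/-- The exponent of the base. -/
def wn (M g n : ℕ) : ℕ := (sq M g n n).2

theorem wn_pow {M g n : ℕ} (hM : M ^ g ≤ n) : ∃ e, wn M g n = 2 ^ e := by
  obtain ⟨⟨e, h1, -⟩, -, -⟩ := sq_prop hM n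
  exact ⟨e, h1⟩

theorem qn_eq {M g n : ℕ} (hM : M ^ g ≤ n) : qn M g n = M ^ wn M g n := by
  obtain ⟨⟨e, h1, h2⟩, -, -⟩ := sq_prop hM n
  unfold qn wn
  rw [h2, h1]

theorem qn_pow_le {M g n : ℕ} (hM : M ^ g ≤ n) : qn M g n ^ g ≤ n := (sq_prop hM n).2.1

theorem two_le_qn {M g n : ℕ} (hM2 : 2 ≤ M) (hM : M ^ g ≤ n) : 2 ≤ qn M g n := by
  rw [qn_eq hM]
  obtain ⟨e, he⟩ := wn_pow hM
  calc 2 ≤ M := hM2
    _ = M ^ 1 := (pow_one M).symm
    _ ≤ M ^ wn M g n := Nat.pow_le_pow_right (by omega) (by rw [he]; exact Nat.one_le_two_pow)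

theorem qn_le {M g n : ℕ} (hM2 : 2 ≤ M) (hg : 1 ≤ g) (hM : M ^ g ≤ n) : qn M g n ≤ n := by
  have h1 := two_le_qn hM2 hM
  calc qn M g n = qn M g n ^ 1 := (pow_one _).symm
    _ ≤ qn M g n ^ g := Nat.pow_le_pow_right (by omega) hg
    _ ≤ n := qn_pow_le hM

theorem wn_le {M g n : ℕ} (hM2 : 2 ≤ M) (hg : 1 ≤ g) (hM : M ^ g ≤ n) : wn M g n ≤ n := by
  have h1 := qn_le hM2 hg hM
  rw [qn_eq hM] at h1
  have h2 : wn M g n < 2 ^ wn M g n := Nat.lt_two_pow_self
  have h3 : 2 ^ wn M g n ≤ M ^ wn M g n := Nat.pow_le_pow_left hM2 _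
  omega

theorem lt_qn_pow {M g n : ℕ} (hM2 : 2 ≤ M) (hg : 1 ≤ g) (hM : M ^ g ≤ n) :
    n < qn M g n ^ (2 * g) := by
  obtain ⟨-, -, h4⟩ := sq_prop hM n
  rcases h4 with h | h
  · exfalso
    have h1 := wn_le hM2 hg hM
    have h2 : n < 2 ^ n := Nat.lt_two_pow_self
    have h3 : wn M g n = 2 ^ n := h
    omega
  · have h5 : qn M g n ^ (2 * g) = ((sq M g n n).1 * (sq M g n n).1) ^ g := by
      unfold qn; rw [pow_mul, pow_two]
    rw [h5]; exact h

/-- Number of rows. -/
def Kn (M A g n : ℕ) : ℕ := qn M g n ^ A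

/-- Number of levels. -/
def levn (M A g n : ℕ) : ℕ := A * wn M g n

/-- The mesh. -/
def μn (M A g n : ℕ) : ℕ := 2 * (n / (Kn M A g n * qn M g n) + 1)

/-- Row length. -/
def ℓn (M A g n : ℕ) : ℕ := qn M g n * μn M A g n

/-- Number of rounds. -/
def Qn (M A g C0 n : ℕ) : ℕ := C0 * (Kn M A g n * Kn M A g n / qn M g n + 1)

section
variable {M A g n : ℕ}

theorem Kn_eq (hM : M ^ g ≤ n) : Kn M A g n = M ^ levn M A g n := by
  unfold Kn levn
  rw [qn_eq hM, ← pow_mul, mul_comm]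

theorem levn_pow {a : ℕ} (hA : A = 2 ^ a) (hM : M ^ g ≤ n) : ∃ e, levn M A g n = 2 ^ e := by
  obtain ⟨e, he⟩ := wn_pow hM
  exact ⟨a + e, by unfold levn; rw [he, hA, pow_add]⟩

theorem one_le_Kn (hM2 : 2 ≤ M) (hM : M ^ g ≤ n) : 1 ≤ Kn M A g n :=
  Nat.one_le_pow _ _ (by have := two_le_qn hM2 hM; omega)

theorem Kn_mul_le (hM2 : 2 ≤ M) (hM : M ^ g ≤ n) (hA : A + 1 ≤ g) :
    Kn M A g n * qn M g n ≤ n := by
  have h1 := two_le_qn hM2 hM
  calc Kn M A g n * qn M g n = qn M g n ^ (A + 1) := by unfold Kn; rw [pow_succ]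
    _ ≤ qn M g n ^ g := Nat.pow_le_pow_right (by omega) hA
    _ ≤ n := qn_pow_le hM

theorem Kn_le (hM2 : 2 ≤ M) (hM : M ^ g ≤ n) (hA : A + 1 ≤ g) : Kn M A g n ≤ n := by
  have h1 := two_le_qn hM2 hM
  have h2 := Kn_mul_le hM2 hM hA
  have h3 : Kn M A g n * 1 ≤ Kn M A g n * qn M g n := Nat.mul_le_mul_left _ (by omega)
  omega

/-- The rows cover the whole time. -/
theorem time_cover (hM2 : 2 ≤ M) (hM : M ^ g ≤ n) : 2 * n < Kn M A g n * ℓn M A g n := by
  have h1 := two_le_qn hM2 hM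
  have h2 := one_le_Kn (A := A) hM2 hM
  have h3 : 0 < Kn M A g n * qn M g n := Nat.mul_pos (by omega) (by omega)
  have h4 : n < (n / (Kn M A g n * qn M g n) + 1) * (Kn M A g n * qn M g n) := by
    have := Nat.lt_div_mul_add (a := n) h3
    rw [Nat.add_mul, Nat.one_mul]; omega
  calc 2 * n < 2 * ((n / (Kn M A g n * qn M g n) + 1) * (Kn M A g n * qn M g n)) := by omega
    _ = Kn M A g n * ℓn M A g n := by unfold ℓn μn; ring

theorem time_le (hM2 : 2 ≤ M) (hM : M ^ g ≤ n) (hA : A + 1 ≤ g) :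
    Kn M A g n * ℓn M A g n ≤ 4 * n := by
  have h5 := Kn_mul_le (A := A) hM2 hM hA
  have h4 : n / (Kn M A g n * qn M g n) * (Kn M A g n * qn M g n) ≤ n := Nat.div_mul_le_self _ _
  calc Kn M A g n * ℓn M A g n =
        2 * (n / (Kn M A g n * qn M g n) * (Kn M A g n * qn M g n) +
          Kn M A g n * qn M g n) := by unfold ℓn μn; ring
    _ ≤ 4 * n := by omega

theorem ℓn_le (hM2 : 2 ≤ M) (hM : M ^ g ≤ n) (hA : A + 1 ≤ g) : ℓn M A g n ≤ 4 * n := by
  have h1 := one_le_Kn (A := A) hM2 hM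
  have h2 := time_le (A := A) hM2 hM hA
  have h3 : 1 * ℓn M A g n ≤ Kn M A g n * ℓn M A g n := Nat.mul_le_mul_right _ h1
  omega

theorem μn_pos : 2 ≤ μn M A g n := Nat.le_mul_of_pos_right 2 (Nat.succ_pos _)

theorem μn_dvd : μn M A g n ∣ ℓn M A g n := Dvd.intro_left _ rfl

theorem two_dvd_μn : 2 ∣ μn M A g n := Dvd.intro _ rfl

theorem two_dvd_ℓn : 2 ∣ ℓn M A g n := two_dvd_μn.trans μn_dvd

theorem ℓn_div : ℓn M A g n / μn M A g n = qn M g n := by
  unfold ℓn
  exact Nat.mul_div_cancel _ (by have := @μn_pos M A g n; omega)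

theorem μn_le (hM2 : 2 ≤ M) (hM : M ^ g ≤ n) (hA : A + 1 ≤ g) : μn M A g n ≤ 4 * n := by
  have h1 := two_le_qn hM2 hM
  have h2 := ℓn_le (A := A) hM2 hM hA
  have h3 : 1 * μn M A g n ≤ qn M g n * μn M A g n := Nat.mul_le_mul_right _ (by omega)
  unfold ℓn at h2
  omega

/-- Labels of cells: positions up to `n` lie in the cells `0, …, K`. -/
theorem pos_div_lt (hM2 : 2 ≤ M) (hM : M ^ g ≤ n) {p : ℕ} (hp : p ≤ 2 * n) :
    p / ℓn M A g n < Kn M A g n := by
  have h1 := time_cover (A := A) hM2 hM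
  rw [Nat.div_lt_iff_lt_mul]
  · omega
  · by_contra h
    have : ℓn M A g n = 0 := by omega
    rw [this] at h1; omega

theorem Qn_le (C0 : ℕ) (hM2 : 2 ≤ M) (hM : M ^ g ≤ n) (hA : A + 1 ≤ g) :
    Qn M A g C0 n ≤ C0 * (n * n + 1) := by
  have h1 := Kn_le (A := A) hM2 hM hA
  have h2 : Kn M A g n * Kn M A g n / qn M g n ≤ n * n :=
    (Nat.div_le_self _ _).trans (Nat.mul_le_mul h1 h1)
  exact Nat.mul_le_mul_left _ (by omega)

end

/-! ### The program -/

/-- Repeated squaring: register `60` holds `n`, `61` the base, `62` its exponent. -/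
def sqProg (g : ℕ) : Prog :=
  .loop 66 (.reg 60) (.ite (elt (powE (emul (.reg 61) (.reg 61)) g) (eadd (.reg 60) (.lit 1)))
    (.seq (.set 61 (emul (.reg 61) (.reg 61))) (.set 62 (emul (.lit 2) (.reg 62))))
    (.set 67 (.lit 0)))

theorem sqProg_spec {E : Env} {s : State} {M g n : ℕ} (hM2 : 2 ≤ M) (hg : 1 ≤ g)
    (hM : M ^ g ≤ n) (h60 : s.reg 60 = n) (h61 : s.reg 61 = M) (h62 : s.reg 62 = 1)
    (hR : 2 * n + 2 ≤ E.R) (hS : 4 * g + 10 ≤ E.S) :
    Spec E s (sqProg g) (2 + n * (4 * g + 22))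
      (fun s' => s'.reg 61 = qn M g n ∧ s'.reg 62 = wn M g n) := by
  have hle : ∀ t, (sq M g n t).1 ≤ n ∧ (sq M g n t).2 ≤ n := by
    intro t
    obtain ⟨⟨e, h1, h2⟩, h3, -⟩ := sq_prop hM t
    have h4 : 2 ^ e < M ^ 2 ^ e := by
      calc 2 ^ e < 2 ^ 2 ^ e := Nat.lt_two_pow_self
        _ ≤ M ^ 2 ^ e := Nat.pow_le_pow_left hM2 _
    have h5 : (sq M g n t).1 ≤ (sq M g n t).1 ^ g := by
      calc (sq M g n t).1 = (sq M g n t).1 ^ 1 := (pow_one _).symm
        _ ≤ _ := Nat.pow_le_pow_right (by rw [h2]; omega) hg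
    rw [← h2] at h4
    omega
  unfold sqProg
  refine Spec.loop n (4 * g + 20 + 0) (fun t s' => s'.reg 61 = (sq M g n t).1 ∧
    s'.reg 62 = (sq M g n t).2) rfl (by decide)
    le_rfl (by simpa using h60) (fun _ => by omega) (fun _ => ⟨h61, h62⟩) ?_
  rintro t ht s' hb hf ⟨hI1, hI2⟩
  have e60 : s'.reg 60 = n := by rw [hf.reg 60 (by simp [Prog.wr])]; exact h60
  have hcost : (elt (powE (emul (.reg 61) (.reg 61)) g) (eadd (.reg 60) (.lit 1))).cost
      = 4 * g + 5 := by
    simp only [elt, Expr.cost, powE_cost, emul, eadd]; ring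
  have hev : (elt (powE (emul (.reg 61) (.reg 61)) g) (eadd (.reg 60) (.lit 1))).eval
      (s'.setReg 66 t) = if ((sq M g n t).1 * (sq M g n t).1) ^ g < n + 1 then 1 else 0 := by
    simp [powE_eval, hI1, e60]
  have hRe := E.hR
  have hok1 : (emul (.reg 61) (.reg 61)).Ok E.R := ⟨trivial, trivial⟩
  have hok : (elt (powE (emul (.reg 61) (.reg 61)) g) (eadd (.reg 60) (.lit 1))).Ok E.R :=
    ⟨powE_ok E.hR hok1 g, trivial, (by show 1 ≤ E.R; omega)⟩
  refine Spec.ite' hok (by omega) (by omega) ?_ ?_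
  · intro h0
    rw [hev] at h0
    have hc : ¬ ((sq M g n t).1 * (sq M g n t).1) ^ g < n + 1 := by
      intro hc; rw [if_pos hc] at h0; omega
    rw [hcost]
    refine Spec.set 0 rfl ?_ (by simp) (fun _ => by omega) ?_
    · simp only [Expr.cost]; omega
    · intro _
      rw [sq, if_neg hc]
      exact ⟨by simpa using hI1, by simpa using hI2⟩
  · intro h0
    rw [hev] at h0
    have hc : ((sq M g n t).1 * (sq M g n t).1) ^ g < n + 1 := by
      by_contra hc; rw [if_neg hc] at h0; exact h0 rfl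
    rw [hcost]
    have h7 := hle (t + 1)
    rw [sq, if_pos hc] at h7
    refine Spec.set_seq ((sq M g n t).1 * (sq M g n t).1) rfl ?_ (by simp [hI1])
      (fun _ => ?_) ?_
    · simp only [Expr.cost, emul]; omega
    · have := h7.1; omega
    refine Spec.set (2 * (sq M g n t).2) rfl ?_ (by simp [hI2]) (fun _ => ?_) ?_
    · simp only [Expr.cost, emul]; omega
    · have := h7.2; omega
    · intro _
      rw [sq, if_pos hc]
      simp

/-- The parameters: registers `50 = ℓ`, `51 = μ`, `52 = q` (mesh steps per row), `53 = K + 1`,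
`60 = n`, `61 = q`, `62 = w`, `63 = K`, `64` = number of levels, `65` = number of rounds. -/
def parProg (M A g C0 : ℕ) : Prog :=
  .seq (.set 61 (.lit M))
  (.seq (.set 62 (.lit 1))
  (.seq (sqProg g)
  (.seq (.set 63 (powE (.reg 61) A))
  (.seq (.set 64 (emul (.lit A) (.reg 62)))
  (.seq (.set 52 (.reg 61))
  (.seq (.set 51 (emul (.lit 2) (eadd (ediv (.reg 60) (emul (.reg 63) (.reg 61))) (.lit 1))))
  (.seq (.set 50 (emul (.reg 61) (.reg 51)))
  (.seq (.set 53 (eadd (.reg 63) (.lit 1)))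
    (.set 65 (emul (.lit C0) (eadd (ediv (emul (.reg 63) (.reg 63)) (.reg 61)) (.lit 1))))))))))))

/-- The registers after the computation of the parameters. -/
structure HasPar (M A g C0 n : ℕ) (s : State) : Prop where
  r50 : s.reg 50 = ℓn M A g n
  r51 : s.reg 51 = μn M A g n
  r52 : s.reg 52 = qn M g n
  r53 : s.reg 53 = Kn M A g n + 1
  r60 : s.reg 60 = n
  r61 : s.reg 61 = qn M g n
  r62 : s.reg 62 = wn M g n
  r63 : s.reg 63 = Kn M A g n
  r64 : s.reg 64 = levn M A g n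
  r65 : s.reg 65 = Qn M A g C0 n

theorem HasPar.frame {M A g C0 n : ℕ} {s s' : State} {wr wa : List ℕ}
    (h : HasPar M A g C0 n s) (hf : Frame s s' wr wa)
    (hw : ∀ i ∈ [50, 51, 52, 53, 60, 61, 62, 63, 64, 65], i ∉ wr) : HasPar M A g C0 n s' :=
  ⟨by rw [hf.reg _ (hw _ (by simp))]; exact h.r50, by rw [hf.reg _ (hw _ (by simp))]; exact h.r51,
   by rw [hf.reg _ (hw _ (by simp))]; exact h.r52, by rw [hf.reg _ (hw _ (by simp))]; exact h.r53,
   by rw [hf.reg _ (hw _ (by simp))]; exact h.r60, by rw [hf.reg _ (hw _ (by simp))]; exact h.r61,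
   by rw [hf.reg _ (hw _ (by simp))]; exact h.r62, by rw [hf.reg _ (hw _ (by simp))]; exact h.r63,
   by rw [hf.reg _ (hw _ (by simp))]; exact h.r64, by rw [hf.reg _ (hw _ (by simp))]; exact h.r65⟩

theorem parProg_wr (M A g C0 : ℕ) : (parProg M A g C0).wr =
    [61, 62, 66, 61, 62, 67, 63, 64, 52, 51, 50, 53, 65] := rfl

theorem parProg_wa (M A g C0 : ℕ) : (parProg M A g C0).wa = [] := rfl

theorem parProg_spec {E : Env} {s : State} {M A g C0 n : ℕ} (hM2 : 2 ≤ M) (hA : A + 1 ≤ g)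
    (hM : M ^ g ≤ n) (h60 : s.reg 60 = n) (hR : 4 * n + 4 ≤ E.R)
    (hMR : M ≤ E.R) (hAR : A * n ≤ E.R) (hAR' : A ≤ E.R) (hCR : C0 ≤ E.R)
    (hCR' : C0 * (n * n + 1) ≤ E.R)
    (hS : 4 * g + 10 ≤ E.S) :
    Spec E s (parProg M A g C0) ((100 + 4 * A) + n * (4 * g + 22)) (HasPar M A g C0 n) := by
  have hq2 := two_le_qn hM2 hM
  have hqn := qn_le hM2 (by omega : 1 ≤ g) hM
  have hwn := wn_le hM2 (by omega : 1 ≤ g) hM
  have hK1 := one_le_Kn (A := A) hM2 hM
  have hKn := Kn_le (A := A) hM2 hM hA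
  have hℓ := ℓn_le (A := A) hM2 hM hA
  have hμ := μn_le (A := A) hM2 hM hA
  have hQ := Qn_le (A := A) C0 hM2 hM hA
  have hES := E.hS
  unfold parProg
  refine Spec.set_seq' M hMR (show 1 ≤ E.S by omega) (by simp only [Expr.cost]; omega) rfl
    (fun _ => hMR) ?_
  refine Spec.set_seq 1 rfl (by simp only [Expr.cost]; omega) rfl (fun _ => by omega) ?_
  refine Spec.seq 2 (n * (4 * g + 22)) (94 + 4 * A) 0
    (fun s' => s'.reg 61 = qn M g n ∧ s'.reg 62 = wn M g n)
    (by simp only [Expr.cost]; omega) (by omega)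
    (sqProg_spec hM2 (by omega) hM (by simpa using h60) (by simp) (by simp) (by omega) hS) ?_
  rintro s1 hf ⟨h61, h62⟩
  have e60 : s1.reg 60 = n := by
    rw [hf.reg 60 (by simp [sqProg, Prog.wr])]; simpa using h60
  have hok61 : (Expr.reg 61).Ok E.R := trivial
  refine Spec.set_seq' (Kn M A g n) (powE_ok E.hR hok61 A)
    (by rw [powE_cost]; simp only [Expr.cost]; omega)
    (by rw [powE_cost]; simp only [Expr.cost]; omega)
    (by simp [powE_eval, h61, Kn]) (fun _ => by omega) ?_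
  refine Spec.set_seq' (levn M A g n) (show A ≤ E.R ∧ True from ⟨hAR', trivial⟩)
    (show 3 ≤ E.S by omega) (by rw [powE_cost]; simp only [Expr.cost, emul]; omega)
    (by simp [h62, levn]) (fun _ => ?_) ?_
  · exact (Nat.mul_le_mul_left _ hwn).trans hAR
  refine Spec.set_seq (qn M g n) rfl
    (by rw [powE_cost]; simp only [Expr.cost, emul]; omega)
    (by simp [h61]) (fun _ => by omega) ?_
  refine Spec.set_seq (μn M A g n) rfl
    (by rw [powE_cost]; simp only [Expr.cost, emul, eadd, ediv]; omega)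
    (by simp [h61, e60, μn]) (fun _ => by omega) ?_
  refine Spec.set_seq (ℓn M A g n) rfl
    (by rw [powE_cost]; simp only [Expr.cost, emul, eadd, ediv]; omega)
    (by simp [h61, ℓn]) (fun _ => by omega) ?_
  refine Spec.set_seq (Kn M A g n + 1) rfl
    (by rw [powE_cost]; simp only [Expr.cost, emul, eadd, ediv]; omega)
    (by simp) (fun _ => by omega) ?_
  have hlast : ∀ {s2 : State}, s2.reg 61 = qn M g n → s2.reg 63 = Kn M A g n →
      (emul (.lit C0) (eadd (ediv (emul (.reg 63) (.reg 63)) (.reg 61)) (.lit 1))).eval s2 =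
        Qn M A g C0 n := by
    intro s2 a b; simp [a, b, Qn]
  intro hb
  have hbd : Bdd E _ := hb
  have hokl : (emul (.lit C0) (eadd (ediv (emul (.reg 63) (.reg 63)) (.reg 61)) (.lit 1))).Ok E.R :=
    ⟨hCR, ⟨⟨⟨trivial, trivial⟩, trivial⟩, (by show 1 ≤ E.R; omega)⟩⟩
  have hv := hlast (s2 := ((((((s1.setReg 63 (Kn M A g n)).setReg 64 (levn M A g n)).setReg 52
    (qn M g n)).setReg 51 (μn M A g n)).setReg 50 (ℓn M A g n)).setReg 53 (Kn M A g n + 1)))
    (by simp [h61]) (by simp)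
  refine ⟨?_, ?_, ?_, ?_⟩
  · simp only [Prog.run]
    rw [hv]
    constructor <;> simp [h61, h62, e60]
  · simp only [Prog.run]
    rw [hv]
    exact hb.setReg 65 (hQ.trans hCR')
  · simp only [Prog.time, Expr.cost, emul, eadd, ediv, powE_cost]
    omega
  · exact Expr.top_lt hb _ hokl (show 9 ≤ E.S by omega)

/-! ### The frame of the main program -/

/-- Small inputs (`n < n0`): full dynamic program; otherwise parameters and `rest`. -/
def topProg (n0 M A g C0 : ℕ) (rest : Prog) : Prog :=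
  .seq (.set 60 (emax (.reg 0) (.reg 1)))
    (.ite (elt (.reg 60) (.lit n0)) (.seq (.set 14 (eadd (.reg 0) (.reg 1))) (band 2))
      (.seq (parProg M A g C0) rest))

/-- Small inputs: the output is the edit distance. -/
theorem top_small {E : Env} {n0 M A g C0 n : ℕ} {rest : Prog} {x y : List ℕ}
    (hn : n = max x.length y.length) (hsmall : n < n0) (hn0 : n0 ≤ E.R) (hR : 2 * n + 1 ≤ E.R) :
    Spec E (State.init x y) (topProg n0 M A g C0 rest) (400 * ((n + 1) * (2 * n + 1)))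
      (fun s' => s'.reg 2 = ED x y ∧ s'.coins = 0) := by
  have hER := E.hR
  have hES := E.hS
  have h1 : 1 ≤ (n + 1) * (2 * n + 1) := Nat.mul_pos (by omega) (by omega)
  refine Spec.le (c := 40 + 360 * ((n + 1) * (2 * n + 1))) ?_ (by omega)
  unfold topProg
  refine Spec.set_seq n rfl (by decide) ?_ (fun _ => by omega) ?_
  · simp [init_reg0, init_reg1, hn]
  refine Spec.ite' (show True ∧ n0 ≤ E.R from ⟨trivial, hn0⟩) (show 3 ≤ E.S by omega)
    (by simp [Expr.cost, elt, emax]) ?_ ?_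
  · intro h
    exfalso
    simp [hsmall] at h
  · intro _
    refine Spec.set_seq (x.length + y.length) rfl (by simp [Expr.cost, elt, emax, eadd])
      (by simp [init_reg0, init_reg1]) (fun _ => by omega) ?_
    refine Spec.mono (c := 360 * ((n + 1) * (2 * n + 1))) ((band_spec' (r := 2) (x := x) (y := y)
      (k := x.length + y.length) (n := n) (by simp [init_arr0]) (by simp [init_arr1])
      (by simp [init_reg0]) (by simp [init_reg1]) (by simp) (by omega) (by omega) (by omega)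
      (by omega)).withCoins (by decide) |>.le ?_) ?_ ?_
    · refine Nat.mul_le_mul_left _ (Nat.mul_le_mul_left _ (by omega))
    · exact Nat.le_add_left _ _
    · rintro s' ⟨h1, h2⟩
      refine ⟨?_, by simpa [init_coins] using h1⟩
      rw [h2]
      have := dist_le (fun i => x.getD i 0) (fun i => y.getD i 0) 0 x.length 0 y.length
      rw [ED_eq_dist, pre]
      omega

/-- The state in which `rest` is started. -/
structure Start (M A g C0 n : ℕ) (x y : List ℕ) (s : State) : Prop where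
  par : HasPar M A g C0 n s
  r0 : s.reg 0 = x.length
  r1 : s.reg 1 = y.length
  x : s.arr 0 = fun i => x.getD i 0
  y : s.arr 1 = fun i => y.getD i 0
  arr : ∀ j, 2 ≤ j → ∀ i, s.arr j i = 0
  reg : ∀ i, 2 ≤ i → i < 50 → s.reg i = 0
  reg' : ∀ i, 68 ≤ i → s.reg i = 0
  coins : s.coins = 0

/-- Large inputs. -/
theorem top_big {E : Env} {n0 M A g C0 n c : ℕ} {rest : Prog} {x y : List ℕ}
    {Q : State → Prop} (hn : n = max x.length y.length) (hbig : n0 ≤ n)
    (hM0 : M ^ g ≤ n0) (hM2 : 2 ≤ M) (hA : A + 1 ≤ g) (hR : 4 * n + 4 ≤ E.R)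
    (hMR : M ≤ E.R) (hAR : A * n ≤ E.R) (hAR' : A ≤ E.R) (hCR : C0 ≤ E.R)
    (hCR' : C0 * (n * n + 1) ≤ E.R) (hS : 4 * g + 10 ≤ E.S)
    (hrest : ∀ s', Start M A g C0 n x y s' → Spec E s' rest c Q) :
    Spec E (State.init x y) (topProg n0 M A g C0 rest)
      (150 + 4 * A + (n * (4 * g + 22) + c)) Q := by
  have hER := E.hR
  have hES := E.hS
  have hM : M ^ g ≤ n := hM0.trans hbig
  unfold topProg
  refine Spec.le (c := (120 + 4 * A) + (n * (4 * g + 22) + c)) ?_ (by omega)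
  refine Spec.set_seq n rfl (by simp only [Expr.cost, emax]; omega) ?_ (fun _ => by omega) ?_
  · simp [init_reg0, init_reg1, hn]
  refine Spec.ite' (show True ∧ n0 ≤ E.R from ⟨trivial, by omega⟩) (show 3 ≤ E.S by omega)
    (by simp only [Expr.cost, elt, emax]; omega) ?_ ?_
  · intro _
    refine Spec.le (c := (100 + 4 * A) + (n * (4 * g + 22) + c)) ?_
      (by simp only [Expr.cost, elt, emax]; omega)
    refine Spec.seq (100 + 4 * A) (n * (4 * g + 22)) 0 c
      (fun s' => s'.coins = 0 ∧ HasPar M A g C0 n s') (by omega) le_rfl ?_ ?_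
    · refine Spec.mono ((parProg_spec hM2 hA hM (by simp) hR hMR hAR hAR' hCR hCR' hS).withCoins
        ?_) le_rfl ?_
      · simp [parProg, sqProg, Prog.norand]
      · rintro s' ⟨h1, h2⟩
        exact ⟨by simpa [init_coins] using h1, h2⟩
    · rintro s1 hf ⟨hc, hp⟩
      rw [parProg_wr, parProg_wa] at hf
      have hreg : ∀ i, i ∉ [61, 62, 66, 61, 62, 67, 63, 64, 52, 51, 50, 53, 65] → i ≠ 60 →
          s1.reg i = (State.init x y).reg i := by
        intro i hi h60
        rw [hf.reg i hi]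
        simp [h60]
      have harr : ∀ j, s1.arr j = (State.init x y).arr j := by
        intro j
        rw [hf.arr j (by simp)]
        rfl
      rw [Nat.zero_add]
      refine hrest s1 ⟨hp, ?_, ?_, ?_, ?_, ?_, ?_, ?_, hc⟩
      · rw [hreg 0 (by decide) (by decide)]; rfl
      · rw [hreg 1 (by decide) (by decide)]; rfl
      · rw [harr 0]; rfl
      · rw [harr 1]; rfl
      · intro j hj i
        rw [harr j]
        simp only [State.init]
        rw [if_neg (by omega), if_neg (by omega)]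
      · intro i hi hi'
        rw [hreg i (by simp; omega) (by omega)]
        simp only [State.init]
        rw [if_neg (by omega), if_neg (by omega)]
      · intro i hi
        rw [hreg i (by simp; omega) (by omega)]
        simp only [State.init]
        rw [if_neg (by omega), if_neg (by omega)]
  · intro h
    exfalso
    have h1 : ¬ n < n0 := by omega
    simp [h1] at h

end Vale.Agent.P315.H992
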